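import Vale.Agent.P245.H706.HornsC
import Vale.Agent.P245.K.All
import Vale.Agent.P245.H607.Cor
import Vale.Agent.P245.H847.HandIn
import Vale.Agent.P245.QC.H110.Bm

/-! P245: Gaussian upper tails for maxima of Bessel families of linear functionals; no dependence
on the dimension nor on the number of functionals (proof: helper420) -/

open MeasureTheory Set Filter Topology
open scoped ENNReal NNReal ContDiff

noncomputable section

namespace Vale.Agent.P245.H706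

theorem horns : ∃ C : ℝ, 0 < C ∧ ∀ (n : ℕ) (μ : Measure (EuclideanSpace ℝ (Fin n)))
    [IsProbabilityMeasure μ], HasLogConcaveDensity μ → ∀ a : ℝ, 0 < a → LinearlySubgaussian μ a →
    ∀ (N : ℕ) (v : Fin N → EuclideanSpace ℝ (Fin n)) (c : Fin N → ℝ) (b : ℝ), 1 ≤ b →
    (∀ i, ‖v i‖ ≤ 1) → (∀ α : Fin N → ℝ, ‖∑ i, α i • v i‖ ^ 2 ≤ b * ∑ i, α i ^ 2) →
    1 / 2 ≤ μ.real {x | ∀ i, inner ℝ (v i) x ≤ c i} → ∀ ρ : ℝ, 0 ≤ ρ →
    μ.real {x | ∃ i, c i + ρ ≤ inner ℝ (v i) x} ≤ C * b * Real.exp (-(ρ ^ 2 / (4 * a ^ 2))) := by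
  obtain ⟨C0, hC0, hK⟩ := Vale.Agent.P245.K.kls_final
  refine ⟨4000 * C0 + 32 + Real.exp 16, by positivity,
    fun n μ _ hlc a ha hsub N v c b hb1 hv hb hB ρ hρ => ?_⟩
  set C := 4000 * C0 + 32 + Real.exp 16 with hC
  have he16 : Real.exp 16 ≤ C := by rw [hC]; linarith
  have hCpos : 0 < C := lt_of_lt_of_le (Real.exp_pos _) he16
  have hb0 : 0 < b := by linarith
  have ha2 : 0 < a ^ 2 := by positivity
  rcases lt_or_ge ρ (8 * a) with hρ8 | hρ8
  · have h1 : μ.real {x | ∃ i, c i + ρ ≤ inner ℝ (v i) x} ≤ 1 := measureReal_le_one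
    refine h1.trans ?_
    have h2 : ρ ^ 2 / (4 * a ^ 2) ≤ 16 := by
      rw [div_le_iff₀ (by positivity)]
      nlinarith
    have h3 : Real.exp (-16) ≤ Real.exp (-(ρ ^ 2 / (4 * a ^ 2))) :=
      Real.exp_le_exp.2 (by linarith)
    have h4 : Real.exp 16 * Real.exp (-16) = 1 := by
      rw [← Real.exp_add]; norm_num
    calc (1 : ℝ) = Real.exp 16 * 1 * Real.exp (-16) := by rw [mul_one, h4]
      _ ≤ C * b * Real.exp (-(ρ ^ 2 / (4 * a ^ 2))) := by
        refine mul_le_mul (mul_le_mul he16 hb1 zero_le_one hCpos.le) h3 (Real.exp_pos _).le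
          (by positivity)
  · have h2 : Integrable (fun x => ‖x‖ ^ 2) μ := by
      have h := H767.tilted_norm_sq ha hsub (F := fun _ => (0 : ℝ))
        (LipschitzWith.const' 0) 0
      simpa using h
    have hPoin : ∀ u : EuclideanSpace ℝ (Fin n) → ℝ, ContDiff ℝ ∞ u → HasCompactSupport u →
        (∫ x, u x ^ 2 ∂μ) - (∫ x, u x ∂μ) ^ 2 ≤
          200 * C0 * a ^ 2 * ∫ x, ‖gradient u x‖ ^ 2 ∂μ := by
      intro u hu huc
      exact ((H847.handin hC0 hK n μ hlc (fun i => ∫ x, x i ∂μ)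
        (fun i j => ∫ x, (x i - ∫ y, y i ∂μ) * (x j - ∫ y, y j ∂μ) ∂μ) (fun _ => rfl)
        (fun _ _ => rfl) u hu huc).2.2 a ha hsub).1
    have hsec := second ha hb0.le (show 0 ≤ 200 * C0 * a ^ 2 by positivity) h2 hPoin hb hB
    have hsec2 : ∑ i, μ.real {x | c i + a ≤ inner ℝ (v i) x} ≤ 1000 * C0 * b + 8 := by
      have h3 : a ^ 2 * ∑ i, μ.real {x | c i + a ≤ inner ℝ (v i) x} ≤
          a ^ 2 * (1000 * C0 * b + 8) := by
        refine hsec.trans (le_of_eq ?_)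
        ring
      exact le_of_mul_le_mul_left h3 ha2
    have hunion : μ.real {x | ∃ i, c i + ρ ≤ inner ℝ (v i) x} ≤
        ∑ i, μ.real {x | c i + ρ ≤ inner ℝ (v i) x} := by
      have e : {x : EuclideanSpace ℝ (Fin n) | ∃ i, c i + ρ ≤ inner ℝ (v i) x} =
          ⋃ i, {x | c i + ρ ≤ inner ℝ (v i) x} := by
        ext x; simp
      rw [e]
      exact measureReal_iUnion_fintype_le _
    have htail : ∀ i, μ.real {x | c i + ρ ≤ inner ℝ (v i) x} ≤
        4 * Real.exp (-(ρ ^ 2 / (4 * a ^ 2))) * μ.real {x | c i + a ≤ inner ℝ (v i) x} := by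
      intro i
      refine tail QC.H110.bm hlc ha hsub (hv i) (hB.trans ?_) hρ8
      exact measureReal_mono (fun x hx => hx i) (measure_ne_top _ _)
    have hsum : μ.real {x | ∃ i, c i + ρ ≤ inner ℝ (v i) x} ≤
        4 * Real.exp (-(ρ ^ 2 / (4 * a ^ 2))) * (1000 * C0 * b + 8) := by
      refine hunion.trans ((Finset.sum_le_sum fun i _ => htail i).trans ?_)
      rw [← Finset.mul_sum]
      exact mul_le_mul_of_nonneg_left hsec2 (by positivity)
    have hcoef : 4 * (1000 * C0 * b + 8) ≤ C * b := by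
      rw [hC]
      nlinarith [Real.exp_pos 16]
    calc μ.real {x | ∃ i, c i + ρ ≤ inner ℝ (v i) x} ≤
        4 * Real.exp (-(ρ ^ 2 / (4 * a ^ 2))) * (1000 * C0 * b + 8) := hsum
      _ = 4 * (1000 * C0 * b + 8) * Real.exp (-(ρ ^ 2 / (4 * a ^ 2))) := by ring
      _ ≤ C * b * Real.exp (-(ρ ^ 2 / (4 * a ^ 2))) :=
        mul_le_mul_of_nonneg_right hcoef (Real.exp_pos _).le

end Vale.Agent.P245.H706
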