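import Vale.Agent.P245.QC.Iface
import Vale.Agent.P245.H607.Ext
import Vale.Agent.P245.H767.Tilt

/-! P245, upper tail of maxima of Bessel families of linear functionals (proof: helper420) -/

open MeasureTheory Set Filter Topology
open scoped ENNReal NNReal ContDiff

noncomputable section

namespace Vale.Agent.P245.H706

variable {n N : ℕ}

/-- smooth majorant of the positive part -/
def sg (δ t : ℝ) : ℝ := (t + √(t ^ 2 + δ)) / 2

theorem abs_le_sq {δ : ℝ} (hδ : 0 < δ) (t : ℝ) : |t| ≤ √(t ^ 2 + δ) := by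
  rw [← Real.sqrt_sq_eq_abs]
  exact Real.sqrt_le_sqrt (by linarith)

theorem sq_lip {δ : ℝ} (hδ : 0 < δ) (p q : ℝ) :
    |√(p ^ 2 + δ) - √(q ^ 2 + δ)| ≤ |p - q| := by
  have key : ∀ p q : ℝ, √(p ^ 2 + δ) ≤ |p - q| + √(q ^ 2 + δ) := by
    intro p q
    rw [Real.sqrt_le_left (by positivity)]
    have h1 := abs_le_sq hδ q
    have h2 : √(q ^ 2 + δ) ^ 2 = q ^ 2 + δ := Real.sq_sqrt (by positivity)
    have h3 : q * (p - q) ≤ |p - q| * √(q ^ 2 + δ) := by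
      calc q * (p - q) ≤ |q * (p - q)| := le_abs_self _
        _ = |p - q| * |q| := by rw [abs_mul, mul_comm]
        _ ≤ _ := mul_le_mul_of_nonneg_left h1 (abs_nonneg _)
    have h4 : |p - q| ^ 2 = (p - q) ^ 2 := sq_abs _
    nlinarith
  rw [abs_le]
  constructor
  · have := key q p
    rw [abs_sub_comm] at this
    linarith
  · have := key p q
    linarith

theorem sg_pos {δ : ℝ} (hδ : 0 < δ) (t : ℝ) : 0 ≤ sg δ t := by
  have h1 := abs_le_sq hδ t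
  have h2 := neg_abs_le t
  unfold sg
  linarith

theorem le_sg {δ : ℝ} (hδ : 0 < δ) (t : ℝ) : t ≤ sg δ t := by
  have h1 := abs_le_sq hδ t
  have h2 := le_abs_self t
  unfold sg
  linarith

theorem sg_le {δ t : ℝ} (hδ : 0 < δ) (ht : t ≤ 0) : sg δ t ^ 2 ≤ δ / 4 := by
  have h0 := sg_pos hδ t
  have h1 : √(t ^ 2 + δ) ≤ -t + √δ := by
    rw [Real.sqrt_le_left (by have := Real.sqrt_nonneg δ; linarith)]
    have h2 : √δ ^ 2 = δ := Real.sq_sqrt hδ.le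
    nlinarith [Real.sqrt_nonneg δ]
  have h2 : sg δ t ≤ √δ / 2 := by unfold sg; linarith
  have h3 : √δ ^ 2 = δ := Real.sq_sqrt hδ.le
  nlinarith

theorem sg_lip {δ : ℝ} (hδ : 0 < δ) (s t : ℝ) : |sg δ s - sg δ t| ≤ |s - t| := by
  have h := sq_lip hδ s t
  have e : sg δ s - sg δ t = ((s - t) + (√(s ^ 2 + δ) - √(t ^ 2 + δ))) / 2 := by
    unfold sg; ring
  rw [e, abs_div, abs_of_pos (by norm_num : (0 : ℝ) < 2)]
  have := abs_add_le (s - t) (√(s ^ 2 + δ) - √(t ^ 2 + δ))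
  linarith

theorem sg_contDiff {δ : ℝ} (hδ : 0 < δ) : ContDiff ℝ 1 (sg δ) := by
  unfold sg
  have h : ContDiff ℝ 1 (fun t : ℝ => √(t ^ 2 + δ)) :=
    ContDiff.sqrt (by fun_prop) (fun t => by positivity)
  exact (contDiff_id.add h).div_const 2

/-- dual Bessel inequality -/
theorem bessel {v : Fin N → EuclideanSpace ℝ (Fin n)} {b : ℝ} (hb0 : 0 ≤ b)
    (hb : ∀ α : Fin N → ℝ, ‖∑ i, α i • v i‖ ^ 2 ≤ b * ∑ i, α i ^ 2)
    (z : EuclideanSpace ℝ (Fin n)) : ∑ i, inner ℝ (v i) z ^ 2 ≤ b * ‖z‖ ^ 2 := by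
  set S := ∑ i, inner ℝ (v i) z ^ 2 with hS
  have hS0 : 0 ≤ S := Finset.sum_nonneg fun i _ => sq_nonneg _
  have h1 : S = inner ℝ (∑ i, inner ℝ (v i) z • v i) z := by
    rw [sum_inner, hS]
    refine Finset.sum_congr rfl fun i _ => ?_
    rw [real_inner_smul_left]; ring
  have h2 := hb (fun i => inner ℝ (v i) z)
  have h3 : S ≤ ‖∑ i, inner ℝ (v i) z • v i‖ * ‖z‖ := by
    rw [h1]
    exact (real_inner_le_norm _ _)
  have h4 : S ^ 2 ≤ (b * S) * ‖z‖ ^ 2 := by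
    calc S ^ 2 ≤ (‖∑ i, inner ℝ (v i) z • v i‖ * ‖z‖) ^ 2 := pow_le_pow_left₀ hS0 h3 2
      _ = ‖∑ i, inner ℝ (v i) z • v i‖ ^ 2 * ‖z‖ ^ 2 := by ring
      _ ≤ _ := mul_le_mul_of_nonneg_right h2 (sq_nonneg _)
  rcases hS0.eq_or_lt with h0 | h0
  · rw [← h0]; positivity
  · have h5 : S * S ≤ S * (b * ‖z‖ ^ 2) := by nlinarith
    exact le_of_mul_le_mul_left h5 h0

/-- the smooth distance function -/
def gg (v : Fin N → EuclideanSpace ℝ (Fin n)) (c : Fin N → ℝ) (δ a : ℝ)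
    (x : EuclideanSpace ℝ (Fin n)) : ℝ :=
  √(∑ i, sg δ (inner ℝ (v i) x - c i) ^ 2 + a ^ 2)

def TT (v : Fin N → EuclideanSpace ℝ (Fin n)) (c : Fin N → ℝ) (δ : ℝ)
    (x : EuclideanSpace ℝ (Fin n)) : EuclideanSpace ℝ (Fin N) :=
  WithLp.toLp 2 (fun i => sg δ (inner ℝ (v i) x - c i))

theorem gg_eq (v : Fin N → EuclideanSpace ℝ (Fin n)) (c : Fin N → ℝ) (δ a : ℝ)
    (x : EuclideanSpace ℝ (Fin n)) : gg v c δ a x = √(‖TT v c δ x‖ ^ 2 + a ^ 2) := by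
  unfold gg TT
  rw [EuclideanSpace.norm_sq_eq]
  simp

theorem gg_lip {v : Fin N → EuclideanSpace ℝ (Fin n)} {b : ℝ} (hb0 : 0 ≤ b)
    (hb : ∀ α : Fin N → ℝ, ‖∑ i, α i • v i‖ ^ 2 ≤ b * ∑ i, α i ^ 2) (c : Fin N → ℝ)
    {δ a : ℝ} (hδ : 0 < δ) (ha : 0 < a) (x y : EuclideanSpace ℝ (Fin n)) :
    |gg v c δ a x - gg v c δ a y| ≤ √b * ‖x - y‖ := by
  rw [gg_eq, gg_eq]
  refine (sq_lip (by positivity) _ _).trans ((abs_norm_sub_norm_le _ _).trans ?_)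
  apply le_of_sq_le_sq _ (by positivity)
  rw [EuclideanSpace.norm_sq_eq, mul_pow, Real.sq_sqrt hb0]
  refine le_trans ?_ (bessel hb0 hb (x - y))
  refine Finset.sum_le_sum fun i _ => ?_
  have h := sg_lip hδ (inner ℝ (v i) x - c i) (inner ℝ (v i) y - c i)
  have e : inner ℝ (v i) x - c i - (inner ℝ (v i) y - c i) = inner ℝ (v i) (x - y) := by
    rw [inner_sub_right]; ring
  rw [e] at h
  have e2 : (TT v c δ x - TT v c δ y) i =
      sg δ (inner ℝ (v i) x - c i) - sg δ (inner ℝ (v i) y - c i) := rfl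
  rw [e2, Real.norm_eq_abs]
  have := pow_le_pow_left₀ (abs_nonneg _) h 2
  rwa [sq_abs (inner ℝ (v i) (x - y))] at this

theorem gg_contDiff (v : Fin N → EuclideanSpace ℝ (Fin n)) (c : Fin N → ℝ)
    {δ a : ℝ} (hδ : 0 < δ) (ha : 0 < a) : ContDiff ℝ 1 (gg v c δ a) := by
  unfold gg
  refine ContDiff.sqrt ?_ (fun x => ?_)
  · refine ContDiff.add (ContDiff.sum fun i _ => ?_) contDiff_const
    refine ContDiff.pow ?_ 2
    exact (sg_contDiff hδ).comp ((contDiff_const.inner ℝ contDiff_id).sub contDiff_const)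
  · have : 0 ≤ ∑ i, sg δ (inner ℝ (v i) x - c i) ^ 2 := Finset.sum_nonneg fun i _ => sq_nonneg _
    positivity

end Vale.Agent.P245.H706
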