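import Vale.Agent.P245.H706.HornsA

/-! P245, upper tail of maxima of Bessel families: the second moment and the tail of one
functional (proof: helper420) -/

open MeasureTheory Set Filter Topology
open scoped ENNReal NNReal ContDiff

noncomputable section

namespace Vale.Agent.P245.H706

variable {n N : ℕ}

theorem markov {μ : Measure (EuclideanSpace ℝ (Fin n))} [IsProbabilityMeasure μ] {a : ℝ}
    (hsub : LinearlySubgaussian μ a) {w : EuclideanSpace ℝ (Fin n)} (hw : ‖w‖ ≤ 1)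
    {r : ℝ} (hr : 0 ≤ r) :
    μ.real {x | r ≤ |inner ℝ w x|} ≤ 2 * Real.exp (-(r ^ 2 / a ^ 2)) := by
  rcases hr.eq_or_lt with h0 | hr
  · rw [← h0]
    have h1 : μ.real {x | (0:ℝ) ≤ |inner ℝ w x|} ≤ 1 := measureReal_le_one
    refine h1.trans ?_
    norm_num
  by_cases hw0 : w = 0
  · subst hw0
    have e : {x : EuclideanSpace ℝ (Fin n) | r ≤ |inner ℝ (0 : EuclideanSpace ℝ (Fin n)) x|} = ∅ := by
      ext x
      simp only [inner_zero_left, abs_zero, mem_ofPred_eq, mem_empty_iff_false, iff_false]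
      linarith
    rw [e, measureReal_empty]
    positivity
  · have hwp : 0 < ‖w‖ := norm_pos_iff.2 hw0
    set θ : EuclideanSpace ℝ (Fin n) := (‖w‖⁻¹) • w with hθ
    have hθ1 : ‖θ‖ = 1 := by
      rw [hθ, norm_smul, norm_inv, norm_norm, inv_mul_cancel₀ hwp.ne']
    have hs := hsub θ hθ1
    have hmeas : AEMeasurable (fun x : EuclideanSpace ℝ (Fin n) =>
        ENNReal.ofReal (Real.exp (inner ℝ x θ ^ 2 / a ^ 2))) μ := by
      apply Measurable.aemeasurable
      apply Measurable.ennreal_ofReal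
      have : Continuous (fun x : EuclideanSpace ℝ (Fin n) =>
        Real.exp (inner ℝ x θ ^ 2 / a ^ 2)) := by fun_prop
      exact this.measurable
    have h1 := mul_meas_ge_le_lintegral₀ hmeas (ENNReal.ofReal (Real.exp (r ^ 2 / a ^ 2)))
    have hsubset : {x : EuclideanSpace ℝ (Fin n) | r ≤ |inner ℝ w x|} ⊆
        {x | ENNReal.ofReal (Real.exp (r ^ 2 / a ^ 2)) ≤
          ENNReal.ofReal (Real.exp (inner ℝ x θ ^ 2 / a ^ 2))} := by
      intro x hx
      have hx' : r ≤ |inner ℝ w x| := hx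
      have e : inner ℝ x θ = ‖w‖⁻¹ * inner ℝ w x := by
        rw [hθ, real_inner_smul_right, real_inner_comm]
      have h2 : r ≤ |inner ℝ x θ| := by
        rw [e, abs_mul, abs_of_pos (inv_pos.2 hwp)]
        refine hx'.trans ?_
        have : 1 ≤ ‖w‖⁻¹ := (one_le_inv₀ hwp).2 hw
        exact le_mul_of_one_le_left (abs_nonneg _) this
      refine ENNReal.ofReal_le_ofReal (Real.exp_le_exp.2 ?_)
      have h3 := pow_le_pow_left₀ hr.le h2 2
      rw [sq_abs] at h3
      exact div_le_div_of_nonneg_right h3 (sq_nonneg a)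
    have h4 : ENNReal.ofReal (Real.exp (r ^ 2 / a ^ 2)) *
        μ {x : EuclideanSpace ℝ (Fin n) | r ≤ |inner ℝ w x|} ≤ 2 :=
      (mul_le_mul_right (measure_mono hsubset) _).trans (h1.trans hs)
    rw [← ofReal_measureReal, ← ENNReal.ofReal_mul (Real.exp_pos _).le] at h4
    have h4 : Real.exp (r ^ 2 / a ^ 2) * μ.real {x | r ≤ |inner ℝ w x|} ≤ 2 := by
      have h5 := (ENNReal.ofReal_le_iff_le_toReal (by simp)).1 h4
      simpa using h5
    rw [Real.exp_neg, ← div_eq_mul_inv, le_div_iff₀ (Real.exp_pos _), mul_comm]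
    exact h4

theorem sum_one (w : EuclideanSpace ℝ (Fin n)) :
    ∑ i, ∑ j, (1 : Matrix (Fin n) (Fin n) ℝ) i j * (w i * w j) = ‖w‖ ^ 2 := by
  rw [EuclideanSpace.norm_sq_eq]
  refine Finset.sum_congr rfl fun i _ => ?_
  rw [Finset.sum_eq_single i]
  · simp [sq]
  · intro j _ hj
    rw [Matrix.one_apply_ne hj.symm, zero_mul]
  · intro h
    exact absurd (Finset.mem_univ i) h

theorem second {μ : Measure (EuclideanSpace ℝ (Fin n))} [IsProbabilityMeasure μ] {P a b : ℝ}
    (ha : 0 < a) (hb0 : 0 ≤ b) (hP0 : 0 ≤ P) (h2 : Integrable (fun x => ‖x‖ ^ 2) μ)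
    (hP : ∀ u : EuclideanSpace ℝ (Fin n) → ℝ, ContDiff ℝ ∞ u → HasCompactSupport u →
        (∫ x, u x ^ 2 ∂μ) - (∫ x, u x ∂μ) ^ 2 ≤ P * ∫ x, ‖gradient u x‖ ^ 2 ∂μ)
    {v : Fin N → EuclideanSpace ℝ (Fin n)}
    (hb : ∀ α : Fin N → ℝ, ‖∑ i, α i • v i‖ ^ 2 ≤ b * ∑ i, α i ^ 2) {c : Fin N → ℝ}
    (hB : 1 / 2 ≤ μ.real {x | ∀ i, inner ℝ (v i) x ≤ c i}) :
    a ^ 2 * ∑ i, μ.real {x | c i + a ≤ inner ℝ (v i) x} ≤ 5 * (P * b) + 8 * a ^ 2 := by
  set δ : ℝ := a ^ 2 / (N + 1) with hδ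
  have hδ0 : 0 < δ := by positivity
  set g := gg v c δ a with hg
  have hcd : ContDiff ℝ 1 g := gg_contDiff v c hδ0 ha
  have hgc : Continuous g := hcd.continuous
  have hlip : LipschitzWith ⟨√b, Real.sqrt_nonneg b⟩ g := by
    apply LipschitzWith.of_dist_le_mul
    intro x y
    rw [Real.dist_eq, dist_eq_norm]
    exact gg_lip hb0 hb c hδ0 ha x y
  have hgr : ∀ x, ‖gradient g x‖ ≤ √b := by
    intro x
    rw [H607.norm_grad]
    exact norm_fderiv_le_of_lipschitz ℝ hlip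
  have hvar := H607.ext h2 P 1 (fun f hf hfc => by
      simp_rw [sum_one]; exact hP f hf hfc) hcd hgr
  simp_rw [sum_one] at hvar
  have hI : ∫ x, ‖gradient g x‖ ^ 2 ∂μ ≤ b := by
    calc _ ≤ ∫ x, b ∂μ := integral_mono_of_nonneg (ae_of_all _ fun x => sq_nonneg _)
            (integrable_const _) (ae_of_all _ fun x => by
            have := pow_le_pow_left₀ (norm_nonneg _) (hgr x) 2
            rwa [Real.sq_sqrt hb0] at this)
      _ = b := by simp
  set m := ∫ x, g x ∂μ with hm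
  have hvar2 : (∫ x, g x ^ 2 ∂μ) - m ^ 2 ≤ P * b :=
    hvar.trans (mul_le_mul_of_nonneg_left hI hP0)
  have hS0 : ∀ x, 0 ≤ ∑ i, sg δ (inner ℝ (v i) x - c i) ^ 2 :=
    fun x => Finset.sum_nonneg fun i _ => sq_nonneg _
  have hg2 : ∀ x, g x ^ 2 = ∑ i, sg δ (inner ℝ (v i) x - c i) ^ 2 + a ^ 2 := by
    intro x
    have := hS0 x
    exact Real.sq_sqrt (by positivity)
  have hg0 : ∀ x, 0 ≤ g x := fun x => Real.sqrt_nonneg _
  have hgi2 : Integrable (fun x => g x ^ 2) μ := by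
    refine ((integrable_const (2 * g 0 ^ 2)).add (h2.const_mul (2 * b))).mono'
      (hgc.pow 2).aestronglyMeasurable (ae_of_all _ fun x => ?_)
    rw [Real.norm_of_nonneg (sq_nonneg _)]
    have h1 := gg_lip hb0 hb c hδ0 ha x 0
    rw [sub_zero] at h1
    have h3 := pow_le_pow_left₀ (abs_nonneg _) h1 2
    rw [sq_abs, mul_pow, Real.sq_sqrt hb0] at h3
    change g x ^ 2 ≤ 2 * g 0 ^ 2 + 2 * b * ‖x‖ ^ 2
    change (g x - g 0) ^ 2 ≤ b * ‖x‖ ^ 2 at h3
    nlinarith [sq_nonneg (g x - 2 * g 0)]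
  have hgi : Integrable g μ := by
    refine ((integrable_const (1 : ℝ)).add hgi2).mono' hgc.aestronglyMeasurable
      (ae_of_all _ fun x => ?_)
    rw [Real.norm_of_nonneg (hg0 x)]
    change g x ≤ 1 + g x ^ 2
    nlinarith [sq_nonneg (g x - 1), hg0 x]
  have hvar3 : ∫ x, (g x - m) ^ 2 ∂μ = (∫ x, g x ^ 2 ∂μ) - m ^ 2 := by
    have e : ∀ x, (g x - m) ^ 2 = g x ^ 2 - 2 * m * g x + m ^ 2 := fun x => by ring
    simp_rw [e]
    have i1 : Integrable (fun x => 2 * m * g x) μ := hgi.const_mul _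
    have i2 : Integrable (fun x => g x ^ 2 - 2 * m * g x) μ := hgi2.sub i1
    rw [integral_add i2 (integrable_const _), integral_sub hgi2 i1, integral_const_mul]
    simp only [integral_const, probReal_univ, one_smul]
    rw [← hm]
    ring
  have hvi : Integrable (fun x => (g x - m) ^ 2) μ := by
    have e : (fun x => (g x - m) ^ 2) = fun x => g x ^ 2 - 2 * m * g x + m ^ 2 := by
      funext x; ring
    rw [e]
    exact (hgi2.sub (hgi.const_mul _)).add (integrable_const _)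
  have hgB : ∀ x ∈ {x | ∀ i, inner ℝ (v i) x ≤ c i}, g x ≤ 2 * a := by
    intro x hx
    have h1 : ∑ i, sg δ (inner ℝ (v i) x - c i) ^ 2 ≤ ∑ _i : Fin N, δ / 4 :=
      Finset.sum_le_sum fun i _ => sg_le hδ0 (by have := hx i; linarith)
    rw [Finset.sum_const, Finset.card_univ, Fintype.card_fin, nsmul_eq_mul] at h1
    have h3 : δ * (N + 1) = a ^ 2 := by rw [hδ]; field_simp
    have h4 : 0 ≤ (N : ℝ) * δ := by positivity
    have h5 : g x ^ 2 ≤ (2 * a) ^ 2 := by
      rw [hg2]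
      nlinarith
    exact le_of_sq_le_sq h5 (by positivity)
  have hm2 : m ^ 2 ≤ 8 * a ^ 2 + 4 * (P * b) := by
    have hm0 : 0 ≤ m := integral_nonneg hg0
    have hPb : 0 ≤ P * b := by positivity
    rcases le_or_gt m (2 * a) with h | h
    · nlinarith
    · have h3 := mul_meas_ge_le_integral_of_nonneg (μ := μ) (f := fun x => (g x - m) ^ 2)
        (ae_of_all _ fun x => sq_nonneg _) hvi ((m - 2 * a) ^ 2)
      have h4 : μ.real {x | ∀ i, inner ℝ (v i) x ≤ c i} ≤
          μ.real {x | (m - 2 * a) ^ 2 ≤ (g x - m) ^ 2} := by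
        refine measureReal_mono (fun x hx => ?_) (measure_ne_top _ _)
        have := hgB x hx
        change (m - 2 * a) ^ 2 ≤ (g x - m) ^ 2
        nlinarith
      have h5 : (m - 2 * a) ^ 2 * (1 / 2) ≤ P * b := by
        calc (m - 2 * a) ^ 2 * (1 / 2) ≤
            (m - 2 * a) ^ 2 * μ.real {x | (m - 2 * a) ^ 2 ≤ (g x - m) ^ 2} :=
              mul_le_mul_of_nonneg_left (hB.trans h4) (sq_nonneg _)
          _ ≤ _ := h3
          _ ≤ _ := by rw [hvar3]; exact hvar2
      nlinarith [sq_nonneg (m - 4 * a)]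
  have hfin : a ^ 2 * ∑ i, μ.real {x | c i + a ≤ inner ℝ (v i) x} ≤ ∫ x, g x ^ 2 ∂μ := by
    have hms : ∀ i, MeasurableSet {x : EuclideanSpace ℝ (Fin n) | c i + a ≤ inner ℝ (v i) x} :=
      fun i => measurableSet_le measurable_const (by fun_prop)
    have e1 : a ^ 2 * ∑ i, μ.real {x | c i + a ≤ inner ℝ (v i) x} =
        ∫ x, ∑ i, ({x | c i + a ≤ inner ℝ (v i) x}.indicator (fun _ => a ^ 2) x) ∂μ := by
      rw [integral_finsetSum _ (fun i _ => (integrable_const _).indicator (hms i)),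
        Finset.mul_sum]
      refine Finset.sum_congr rfl fun i _ => ?_
      rw [integral_indicator_const _ (hms i), smul_eq_mul, mul_comm]
    rw [e1]
    refine integral_mono (integrable_finsetSum _
      (fun i _ => (integrable_const _).indicator (hms i))) hgi2 fun x => ?_
    change _ ≤ g x ^ 2
    rw [hg2]
    refine le_trans (Finset.sum_le_sum fun i _ => ?_) (le_add_of_nonneg_right (sq_nonneg a))
    by_cases hx : x ∈ {x : EuclideanSpace ℝ (Fin n) | c i + a ≤ inner ℝ (v i) x}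
    · rw [indicator_of_mem hx]
      have hx' : c i + a ≤ inner ℝ (v i) x := hx
      have h1 : a ≤ sg δ (inner ℝ (v i) x - c i) := le_trans (by linarith) (le_sg hδ0 _)
      exact pow_le_pow_left₀ ha.le h1 2
    · rw [indicator_of_notMem hx]
      exact sq_nonneg _
  linarith

end Vale.Agent.P245.H706
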