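import Vale.Agent.P245.H706.HornsB

/-! P245, upper tail of maxima of Bessel families: the tail of one functional
(proof: helper420) -/

open MeasureTheory Set Filter Topology
open scoped ENNReal NNReal ContDiff

noncomputable section

namespace Vale.Agent.P245.H706

variable {n N : ℕ}

/-- real arithmetic: from Brunn-Minkowski to the tail bound -/
theorem arith {a y ρ s p q : ℝ} (ha : 0 < a) (hy : 6 * a ≤ y) (hyρ : 3 / 4 * ρ ≤ y)
    (hρ : 8 * a ≤ ρ) (hs0 : 0 < s) (hs1 : s < 1) (hs : (1 - s) * (y + 2 * a) = ρ - a)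
    (hp0 : 0 ≤ p) (hq0 : 0 ≤ q) (hp : p ≤ 2 * Real.exp (-(y ^ 2 / a ^ 2)))
    (h : (1 / 2 : ℝ) ^ (1 - s) * p ^ s ≤ q) :
    p ≤ 4 * Real.exp (-(ρ ^ 2 / (4 * a ^ 2))) * q := by
  rcases hp0.eq_or_lt with h0 | hp0
  · rw [← h0]; positivity
  have hs1' : 0 < 1 - s := by linarith
  have e1 : p = (2 * p) ^ (1 - s) * ((1 / 2 : ℝ) ^ (1 - s) * p ^ s) := by
    rw [← mul_assoc, ← Real.mul_rpow (by positivity) (by positivity),
      show 2 * p * (1 / 2) = p by ring, ← Real.rpow_add hp0,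
      show 1 - s + s = 1 by ring, Real.rpow_one]
  have h1 : (2 * p) ^ (1 - s) ≤ 4 * Real.exp (-(ρ ^ 2 / (4 * a ^ 2))) := by
    have h2 : (2 * p) ^ (1 - s) ≤ (4 * Real.exp (-(y ^ 2 / a ^ 2))) ^ (1 - s) :=
      Real.rpow_le_rpow (by positivity) (by linarith) hs1'.le
    refine h2.trans ?_
    rw [Real.mul_rpow (by norm_num) (Real.exp_pos _).le, ← Real.exp_mul]
    refine mul_le_mul ?_ (Real.exp_le_exp.2 ?_) (Real.exp_pos _).le (by norm_num)
    · calc (4 : ℝ) ^ (1 - s) ≤ (4 : ℝ) ^ (1 : ℝ) :=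
            Real.rpow_le_rpow_of_exponent_le (by norm_num) (by linarith)
        _ = 4 := Real.rpow_one _
    · have h3 : ρ ^ 2 / 4 ≤ (1 - s) * y ^ 2 := by
        have hy0 : 0 < y := by linarith
        have h4 : 3 / 4 * (y + 2 * a) ≤ y := by linarith
        have h5 : 3 / 4 * (ρ - a) ≤ (1 - s) * y := by
          rw [← hs]
          nlinarith
        have h6 : 7 / 8 * ρ ≤ ρ - a := by linarith
        have hρ0 : 0 < ρ := by linarith
        have h7 : 3 / 4 * (ρ - a) * (3 / 4 * ρ) ≤ (1 - s) * y * y :=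
          mul_le_mul h5 hyρ (by positivity) (by positivity)
        nlinarith
      have h8 : ρ ^ 2 / (4 * a ^ 2) ≤ (1 - s) * y ^ 2 / a ^ 2 := by
        rw [show ρ ^ 2 / (4 * a ^ 2) = (ρ ^ 2 / 4) / a ^ 2 by
          rw [div_div]]
        exact div_le_div_of_nonneg_right h3 (sq_nonneg a)
      have h9 : -(y ^ 2 / a ^ 2) * (1 - s) = -((1 - s) * y ^ 2 / a ^ 2) := by ring
      rw [h9]
      linarith
  calc p = (2 * p) ^ (1 - s) * ((1 / 2 : ℝ) ^ (1 - s) * p ^ s) := e1
    _ ≤ (2 * p) ^ (1 - s) * q := mul_le_mul_of_nonneg_left h (by positivity)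
    _ ≤ _ := mul_le_mul_of_nonneg_right h1 hq0

theorem tail (hbm : QC.StBM) {μ : Measure (EuclideanSpace ℝ (Fin n))} [IsProbabilityMeasure μ]
    (hlc : HasLogConcaveDensity μ) {a : ℝ} (ha : 0 < a) (hsub : LinearlySubgaussian μ a)
    {w : EuclideanSpace ℝ (Fin n)} (hw : ‖w‖ ≤ 1) {c ρ : ℝ}
    (hmed : 1 / 2 ≤ μ.real {x | inner ℝ w x ≤ c}) (hρ : 8 * a ≤ ρ) :
    μ.real {x | c + ρ ≤ inner ℝ w x} ≤
      4 * Real.exp (-(ρ ^ 2 / (4 * a ^ 2))) * μ.real {x | c + a ≤ inner ℝ w x} := by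
  have he : 2 * Real.exp (-((2 * a) ^ 2 / a ^ 2)) < 1 / 2 := by
    have h0 : (2 * a) ^ 2 / a ^ 2 = 4 := by field_simp; ring
    rw [h0, Real.exp_neg]
    have h1 : 5 ≤ Real.exp 4 := by
      have := Real.add_one_le_exp (4 : ℝ)
      linarith
    have h2 : (Real.exp 4)⁻¹ ≤ 5⁻¹ := inv_anti₀ (by norm_num) h1
    linarith
  have hM := markov hsub hw (show 0 ≤ 2 * a by positivity)
  have hc : -(2 * a) ≤ c := by
    by_contra hcon
    push Not at hcon
    have h1 : μ.real {x | inner ℝ w x ≤ c} ≤ μ.real {x | 2 * a ≤ |inner ℝ w x|} := by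
      refine measureReal_mono (fun x hx => ?_) (measure_ne_top _ _)
      have hx' : inner ℝ w x ≤ c := hx
      change 2 * a ≤ |inner ℝ w x|
      rw [le_abs]
      right
      linarith
    linarith
  have hmA : MeasurableSet {x : EuclideanSpace ℝ (Fin n) | -(2 * a) ≤ inner ℝ w x} :=
    measurableSet_le measurable_const (by fun_prop)
  have hmB : MeasurableSet {x : EuclideanSpace ℝ (Fin n) | c + ρ ≤ inner ℝ w x} :=
    measurableSet_le measurable_const (by fun_prop)
  have hmC : MeasurableSet {x : EuclideanSpace ℝ (Fin n) | c + a ≤ inner ℝ w x} :=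
    measurableSet_le measurable_const (by fun_prop)
  have hA : 1 / 2 ≤ μ.real {x | -(2 * a) ≤ inner ℝ w x} := by
    have h1 : μ.real {x | -(2 * a) ≤ inner ℝ w x}ᶜ ≤ μ.real {x | 2 * a ≤ |inner ℝ w x|} := by
      refine measureReal_mono (fun x hx => ?_) (measure_ne_top _ _)
      have hx' : ¬ (-(2 * a) ≤ inner ℝ w x) := hx
      push Not at hx'
      change 2 * a ≤ |inner ℝ w x|
      rw [le_abs]
      right
      linarith
    have h2 := probReal_compl_eq_one_sub (μ := μ) hmA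
    linarith
  have hD : 0 < c + ρ + 2 * a := by linarith
  set s : ℝ := (c + 3 * a) / (c + ρ + 2 * a) with hs
  have hs0 : 0 < s := div_pos (by linarith) hD
  have hs1 : s < 1 := (div_lt_one hD).2 (by linarith)
  have hse : s * (c + ρ + 2 * a) = c + 3 * a := by
    rw [hs]; exact div_mul_cancel₀ _ hD.ne'
  have h := hbm n μ hlc _ _ {x | c + a ≤ inner ℝ w x} hmA hmB hmC s hs0 hs1 (by
    intro x hx y hy
    have hx' : -(2 * a) ≤ inner ℝ w x := hx
    have hy' : c + ρ ≤ inner ℝ w y := hy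
    change c + a ≤ inner ℝ w ((1 - s) • x + s • y)
    rw [inner_add_right, real_inner_smul_right, real_inner_smul_right]
    have h1 : (1 - s) * (-(2 * a)) ≤ (1 - s) * inner ℝ w x :=
      mul_le_mul_of_nonneg_left hx' (by linarith)
    have h2 : s * (c + ρ) ≤ s * inner ℝ w y := mul_le_mul_of_nonneg_left hy' hs0.le
    nlinarith)
  have hhalf : (1 / 2 : ℝ) ^ (1 - s) * μ.real {x | c + ρ ≤ inner ℝ w x} ^ s ≤
      μ.real {x | c + a ≤ inner ℝ w x} := by
    refine le_trans ?_ h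
    exact mul_le_mul_of_nonneg_right (Real.rpow_le_rpow (by norm_num) hA (by linarith))
      (Real.rpow_nonneg measureReal_nonneg _)
  refine arith (y := c + ρ) ha (by linarith) (by linarith) hρ hs0 hs1 (by linarith)
    measureReal_nonneg measureReal_nonneg ?_ hhalf
  refine le_trans ?_ (markov hsub hw (show 0 ≤ c + ρ by linarith))
  refine measureReal_mono (fun x hx => ?_) (measure_ne_top _ _)
  have hx' : c + ρ ≤ inner ℝ w x := hx
  exact le_trans hx' (le_abs_self _)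

end Vale.Agent.P245.H706
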