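import Vale.Agent.P245.H706.Horns

/-! P245: the theorem `horns` in named form, monotone in the constant -/

open MeasureTheory
open scoped ContDiff

namespace Vale.Agent.P245.DFP

variable {n : ℕ}

/-- Gaussian upper deviations of all maxima of affine functionals `⟨v i, x⟩ - c i`, `i < N`, whose
directions `v i` have norm at most `1` and form a Bessel family with constant `b`
(`b = 1` for orthonormal directions); `N` and the `c i` are arbitrary. -/
def BesselMaxima (μ : Measure (EuclideanSpace ℝ (Fin n))) (C a : ℝ) : Prop :=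
  ∀ (N : ℕ) (v : Fin N → EuclideanSpace ℝ (Fin n)) (c : Fin N → ℝ) (b : ℝ), 1 ≤ b →
    (∀ i, ‖v i‖ ≤ 1) → (∀ α : Fin N → ℝ, ‖∑ i, α i • v i‖ ^ 2 ≤ b * ∑ i, α i ^ 2) →
    1 / 2 ≤ μ.real {x | ∀ i, inner ℝ (v i) x ≤ c i} → ∀ ρ : ℝ, 0 ≤ ρ →
      μ.real {x | ∃ i, c i + ρ ≤ inner ℝ (v i) x} ≤ C * b * Real.exp (-(ρ ^ 2 / (4 * a ^ 2)))

end Vale.Agent.P245.DFP

namespace Vale.Agent.P245.H706

theorem horns_def : ∃ M : ℝ, 0 < M ∧ ∀ (n : ℕ) (μ : Measure (EuclideanSpace ℝ (Fin n)))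
    [IsProbabilityMeasure μ], HasLogConcaveDensity μ → ∀ a : ℝ, 0 < a → LinearlySubgaussian μ a →
    ∀ C : ℝ, M ≤ C → DFP.BesselMaxima μ C a := by
  obtain ⟨M, hM, h⟩ := horns
  refine ⟨M, hM, fun n μ _ hlc a ha hsub C hC N v c b hb1 hv hb hB ρ hρ => ?_⟩
  refine (h n μ hlc a ha hsub N v c b hb1 hv hb hB ρ hρ).trans ?_
  have hb0 : 0 ≤ b := by linarith
  exact mul_le_mul_of_nonneg_right (mul_le_mul_of_nonneg_right hC hb0) (Real.exp_pos _).le

end Vale.Agent.P245.H706
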